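import Vale.Agent.P323.Z.Step

/-!
# Contract for the two halves of the one-step theorem, and the glue
`Step1` : the category of reduced words (same objects). `Star` : the category of spans.
`step_of` : a `Step1` followed by a `Star` is a `Step`.
-/

namespace Vale.Agent.P323.Z

open CategoryTheory

universe u

/-- The first half of a step: new morphisms only, no new objects. -/
structure Step1 (S : Type u) [Category.{u} S] (a : ℕ → S) (ι : ∀ n, a n ⟶ a (n + 1)) where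
  T : Type u
  [cat : Category.{u} T]
  Φ : S ⥤ T
  inj : Function.Injective Φ.obj
  surj : Function.Surjective Φ.obj
  faithful : ∀ {x y : S} {f g : x ⟶ y}, Φ.map f = Φ.map g → f = g
  pb : ∀ {z x y b : S} {p : z ⟶ x} {q : z ⟶ y} {f : x ⟶ b} {g : y ⟶ b}, IsPB p q f g →
    IsPB (Φ.map p) (Φ.map q) (Φ.map f) (Φ.map g)
  div : ∀ {x y z : S} (u : Φ.obj x ⟶ Φ.obj y) (g : y ⟶ z) (h : x ⟶ z),
    u ≫ Φ.map g = Φ.map h → ∃ k, Φ.map k = u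
  stage : IsStage T (fun n => Φ.obj (a n)) (fun n => Φ.map (ι n))
  nd : ∀ {d b : S} (x : Φ.obj d ⟶ Φ.obj b), (∃ y, Φ.map y = x) ∨ Nonempty (SND Φ a ι x)
  gen : ∀ τ : STask S a ι, Φ.obj τ.c ⟶ Φ.obj τ.b
  gen_α : ∀ τ : STask S a ι, Φ.map τ.α ≫ gen τ = Φ.map (ι τ.n ≫ τ.γ)
  gen_inv : ∀ (τ : STask S a ι) {d : S} {s t : d ⟶ τ.b}, τ.E.rel s t →
    ∃ v : Φ.obj τ.c ⟶ Φ.obj d, v ≫ Φ.map s = gen τ ∧ v ≫ Φ.map t = gen τ
  G1 : ∀ (τ : STask S a ι) {B : S} (A : B ⟶ τ.b), τ.E.rel A A →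
    ∀ (fA : Φ.obj τ.c ⟶ Φ.obj B) (γA : a (τ.n + 1) ⟶ B), fA ≫ Φ.map A = gen τ → γA ≫ A = τ.γ →
    ∀ {b' e : S} (y : B ⟶ b') (y' : e ⟶ b') {f : T} (t : f ⟶ Φ.obj τ.c) (s : f ⟶ Φ.obj e),
      t ≫ fA ≫ Φ.map y = s ≫ Φ.map y' → Thru t (Φ.map τ.α) ∨ Thru (γA ≫ y) y'
  G3 : ∀ (τ : STask S a ι) {d : S} (p : Φ.obj d ⟶ Φ.obj τ.b) (N : SND Φ a ι p)
    (h : Φ.obj (a (τ.n + 1)) ⟶ Φ.obj d), h ≫ p = Φ.map τ.γ →
    ∀ {f : T} (g : f ⟶ Φ.obj d) (s : f ⟶ Φ.obj τ.c), g ≫ p = s ≫ gen τ →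
      Thru g (Φ.map N.π) ∨ Thru s (Φ.map τ.α)
  G4 : ∀ (τ : STask S a ι) {d : S} (p : d ⟶ τ.b),
    (∃ (B : S) (A : B ⟶ τ.b) (u : B ⟶ d), τ.E.rel A (u ≫ p)) ∨
    ∀ {f : T} (g : f ⟶ Φ.obj d) (s : f ⟶ Φ.obj τ.c), g ≫ Φ.map p = s ≫ gen τ →
      Thru s (Φ.map τ.α)
  G5 : ∀ (τ : STask S a ι) {B B' d : S} (A : B ⟶ τ.b) (A' : B' ⟶ τ.b),
    τ.E.rel A A → τ.E.rel A' A' →
    ∀ (fA : Φ.obj τ.c ⟶ Φ.obj B) (fA' : Φ.obj τ.c ⟶ Φ.obj B'), fA ≫ Φ.map A = gen τ →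
      fA' ≫ Φ.map A' = gen τ →
    ∀ (u : B ⟶ d) (u' : B' ⟶ d) {f : T} (s t : f ⟶ Φ.obj τ.c),
      s ≫ fA ≫ Φ.map u = t ≫ fA' ≫ Φ.map u' →
      Thru s (Φ.map τ.α) ∨ Thru t (Φ.map τ.α) ∨
        (s = t ∧ ∃ (K : S) (x : K ⟶ B) (y : K ⟶ B'),
          τ.E.rel (x ≫ A) (y ≫ A') ∧ x ≫ u = y ≫ u')
  G6 : ∀ (τ : STask S a ι) {f : S} (s : Φ.obj f ⟶ Φ.obj τ.c) (y : f ⟶ τ.b),
    s ≫ gen τ = Φ.map y → Thru s (Φ.map τ.α)

/-- The second half of a step: the category of spans over `T`. -/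
structure Star (T : Type u) [Category.{u} T] where
  X : Type u
  [cat : Category.{u} X]
  Ψ : T ⥤ X
  inj : Function.Injective Ψ.obj
  faithful : ∀ {x y : T} {f g : x ⟶ y}, Ψ.map f = Ψ.map g → f = g
  full : ∀ {x y : T} (f : Ψ.obj x ⟶ Ψ.obj y), ∃ g, Ψ.map g = f
  src : ∀ {d : X} {b : T}, (d ⟶ Ψ.obj b) → ∃ e, Ψ.obj e = d
  pb : ∀ {z x y b : T} {p : z ⟶ x} {q : z ⟶ y} {f : x ⟶ b} {g : y ⟶ b}, IsPB p q f g →
    IsPB (Ψ.map p) (Ψ.map q) (Ψ.map f) (Ψ.map g)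
  mono : ∀ {x y : X} (f : x ⟶ y), Mono f
  pbX : ∀ {x y b : X} (f : x ⟶ b) (g : y ⟶ b), ∃ (z : X) (p : z ⟶ x) (q : z ⟶ y), IsPB p q f g
  from_T : ∀ w : X, ∃ x : T, Nonempty (Ψ.obj x ⟶ w)
  am : ∀ {z x y : T} (_ : z ⟶ x) (_ : z ⟶ y), X
  jl : ∀ {z x y : T} (l : z ⟶ x) (r : z ⟶ y), Ψ.obj x ⟶ am l r
  jr : ∀ {z x y : T} (l : z ⟶ x) (r : z ⟶ y), Ψ.obj y ⟶ am l r
  K1 : ∀ {z x y : T} (l : z ⟶ x) (r : z ⟶ y), IsPB (Ψ.map l) (Ψ.map r) (jl l r) (jr l r)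
  K2 : ∀ {z x y z' x' y' : T} (l : z ⟶ x) (r : z ⟶ y) (l' : z' ⟶ x') (r' : z' ⟶ y')
    (p : x' ⟶ x) (m : z' ⟶ z) (q : y' ⟶ y), IsPB l' m p l → IsPB r' m q r →
    ∃ φ : am l' r' ⟶ am l r,
      IsPB (jl l' r') (Ψ.map p) φ (jl l r) ∧ IsPB (jr l' r') (Ψ.map q) φ (jr l r)

attribute [instance] Step1.cat Star.cat

section glue

variable {S T : Type u} [Category.{u} S] [Category.{u} T] {X : Type u} [Category.{u} X]

theorem thru_lift {Ψ : T ⥤ X}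
    (faithful : ∀ {x y : T} {f g : x ⟶ y}, Ψ.map f = Ψ.map g → f = g)
    (full : ∀ {x y : T} (f : Ψ.obj x ⟶ Ψ.obj y), ∃ g, Ψ.map g = f)
    {x y z : T} {f : x ⟶ z} {g : y ⟶ z} : Thru (Ψ.map f) (Ψ.map g) ↔ Thru f g := by
  constructor
  · rintro ⟨h, hh⟩
    obtain ⟨h', rfl⟩ := full h
    exact ⟨h', faithful (by rw [Ψ.map_comp]; exact hh)⟩
  · rintro ⟨h, hh⟩
    exact ⟨Ψ.map h, by rw [← Ψ.map_comp, hh]⟩

/-- Transfer of the data of a new morphism along a fully faithful functor. -/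
def sndMap {Φ : S ⥤ T} {Ψ : T ⥤ X} {a : ℕ → S} {ι : ∀ n, a n ⟶ a (n + 1)}
    (faithful : ∀ {x y : T} {f g : x ⟶ y}, Ψ.map f = Ψ.map g → f = g)
    (full : ∀ {x y : T} (f : Ψ.obj x ⟶ Ψ.obj y), ∃ g, Ψ.map g = f)
    (src : ∀ {d : X} {b : T}, (d ⟶ Ψ.obj b) → ∃ e, Ψ.obj e = d)
    {d b : S} {x : Φ.obj d ⟶ Φ.obj b} (N : SND Φ a ι x) : SND (Φ ⋙ Ψ) a ι (Ψ.map x) where
  n := N.n
  A := N.A
  P := N.P
  π := N.π
  π' := N.π'
  eq := by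
    show Ψ.map (Φ.map N.π) ≫ Ψ.map x = Ψ.map (Φ.map (N.π' ≫ ι N.n ≫ N.A))
    rw [← Ψ.map_comp, N.eq]
  N0 := by
    intro e u y h
    obtain ⟨u', rfl⟩ := full (x := Φ.obj e) (y := Φ.obj d) u
    have h' : u' ≫ x = Φ.map y := faithful (by rw [Ψ.map_comp]; exact h)
    exact (thru_lift faithful full).2 (N.N0 u' y h')
  N1 := by
    intro e y
    rcases N.N1 y with ⟨h1, h2⟩ | h
    · exact Or.inl ⟨h1, (thru_lift faithful full).2 h2⟩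
    · right
      intro f u v huv
      obtain ⟨f', rfl⟩ := src u
      obtain ⟨u', rfl⟩ := full (x := f') (y := Φ.obj d) u
      obtain ⟨v', rfl⟩ := full (x := f') (y := Φ.obj e) v
      have h' : u' ≫ x = v' ≫ Φ.map y :=
        faithful (by rw [Ψ.map_comp, Ψ.map_comp]; exact huv)
      exact (thru_lift faithful full).2 (h u' v' h')
  N2 := N.N2

/-- The converse transfer. -/
def sndUnmap {Φ : S ⥤ T} {Ψ : T ⥤ X} {a : ℕ → S} {ι : ∀ n, a n ⟶ a (n + 1)}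
    (faithful : ∀ {x y : T} {f g : x ⟶ y}, Ψ.map f = Ψ.map g → f = g)
    (full : ∀ {x y : T} (f : Ψ.obj x ⟶ Ψ.obj y), ∃ g, Ψ.map g = f)
    {d b : S} {x : Φ.obj d ⟶ Φ.obj b} (N : SND (Φ ⋙ Ψ) a ι (Ψ.map x)) : SND Φ a ι x where
  n := N.n
  A := N.A
  P := N.P
  π := N.π
  π' := N.π'
  eq := by
    apply faithful
    rw [Ψ.map_comp]
    exact N.eq
  N0 := by
    intro e u y h
    have := N.N0 (Ψ.map u) y (by rw [← Ψ.map_comp, h]; rfl)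
    exact (thru_lift faithful full).1 this
  N1 := by
    intro e y
    rcases N.N1 y with ⟨h1, h2⟩ | h
    · exact Or.inl ⟨h1, (thru_lift faithful full).1 h2⟩
    · right
      intro f u v huv
      have := h (Ψ.map u) (Ψ.map v) (by
        show Ψ.map u ≫ Ψ.map x = Ψ.map v ≫ Ψ.map (Φ.map y)
        rw [← Ψ.map_comp, huv, Ψ.map_comp])
      exact (thru_lift faithful full).1 this
  N2 := N.N2

end glue

/-- The glue: a `Step1` followed by a `Star` is a `Step`. -/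
theorem step_of {S : Type u} [Category.{u} S] {a : ℕ → S} {ι : ∀ n, a n ⟶ a (n + 1)}
    (s1 : Step1 S a ι) (st : Star s1.T) : Nonempty (Step S a ι) := by
  have key : ∀ {x y z : s1.T} {f : x ⟶ z} {g : y ⟶ z},
      Thru (st.Ψ.map f) (st.Ψ.map g) ↔ Thru f g := thru_lift st.faithful st.full
  refine ⟨{
    T := st.X
    cat := st.cat
    Φ := s1.Φ ⋙ st.Ψ
    inj := fun x y h => s1.inj (st.inj h)
    faithful := fun h => s1.faithful (st.faithful h)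
    pb := fun h => st.pb (s1.pb h)
    div := ?_
    stage := ?_
    src := ?_
    nd := ?_
    gen := fun τ => st.Ψ.map (s1.gen τ)
    gen_α := ?_
    gen_inv := ?_
    G1 := ?_
    G3 := ?_
    G4 := ?_
    G5 := ?_
    G6 := ?_
    am := fun l r => st.am (s1.Φ.map l) (s1.Φ.map r)
    jl := fun l r => st.jl (s1.Φ.map l) (s1.Φ.map r)
    jr := fun l r => st.jr (s1.Φ.map l) (s1.Φ.map r)
    K1 := fun l r => st.K1 (s1.Φ.map l) (s1.Φ.map r)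
    K2 := fun l r l' r' p m q h1 h2 =>
      st.K2 (s1.Φ.map l) (s1.Φ.map r) (s1.Φ.map l') (s1.Φ.map r') (s1.Φ.map p) (s1.Φ.map m)
        (s1.Φ.map q) (s1.pb h1) (s1.pb h2) }⟩
  · -- div
    intro x y z u g h hu
    obtain ⟨u', rfl⟩ := st.full (x := s1.Φ.obj x) (y := s1.Φ.obj y) u
    have h' : u' ≫ s1.Φ.map g = s1.Φ.map h :=
      st.faithful (by rw [st.Ψ.map_comp]; exact hu)
    obtain ⟨k, rfl⟩ := s1.div u' g h h'
    exact ⟨k, rfl⟩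
  · -- stage
    refine ⟨st.mono, st.pbX, ?_, ?_⟩
    · intro n h
      apply s1.stage.ι_not n
      apply key.1
      rw [st.Ψ.map_id]
      exact h
    · intro w
      obtain ⟨x, ⟨f⟩⟩ := st.from_T w
      obtain ⟨g⟩ := s1.stage.from_a0 x
      exact ⟨st.Ψ.map g ≫ f⟩
  · -- src
    intro d b f
    obtain ⟨e, rfl⟩ := st.src f
    obtain ⟨e', rfl⟩ := s1.surj e
    exact ⟨e', rfl⟩
  · -- nd
    intro d b x
    obtain ⟨x', rfl⟩ := st.full (x := s1.Φ.obj d) (y := s1.Φ.obj b) x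
    rcases s1.nd x' with ⟨y, rfl⟩ | hN
    · exact Or.inl ⟨y, rfl⟩
    · obtain ⟨N⟩ := hN
      exact Or.inr ⟨sndMap st.faithful st.full st.src N⟩
  · -- gen_α
    intro τ
    show st.Ψ.map (s1.Φ.map τ.α) ≫ st.Ψ.map (s1.gen τ) = st.Ψ.map (s1.Φ.map (ι τ.n ≫ τ.γ))
    rw [← st.Ψ.map_comp, s1.gen_α]
  · -- gen_inv
    intro τ d s t h
    obtain ⟨v, h1, h2⟩ := s1.gen_inv τ h
    refine ⟨st.Ψ.map v, ?_, ?_⟩
    · show st.Ψ.map v ≫ st.Ψ.map (s1.Φ.map s) = st.Ψ.map (s1.gen τ)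
      rw [← st.Ψ.map_comp, h1]
    · show st.Ψ.map v ≫ st.Ψ.map (s1.Φ.map t) = st.Ψ.map (s1.gen τ)
      rw [← st.Ψ.map_comp, h2]
  · -- G1
    intro τ B A hA fA γA hf hγ b' e y y' f t s hts
    obtain ⟨f', rfl⟩ := st.src t
    obtain ⟨fA', rfl⟩ := st.full (x := s1.Φ.obj τ.c) (y := s1.Φ.obj B) fA
    obtain ⟨t', rfl⟩ := st.full (x := f') (y := s1.Φ.obj τ.c) t
    obtain ⟨s', rfl⟩ := st.full (x := f') (y := s1.Φ.obj e) s
    have hf' : fA' ≫ s1.Φ.map A = s1.gen τ := st.faithful (by rw [st.Ψ.map_comp]; exact hf)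
    have h' : t' ≫ fA' ≫ s1.Φ.map y = s' ≫ s1.Φ.map y' :=
      st.faithful (by rw [st.Ψ.map_comp, st.Ψ.map_comp, st.Ψ.map_comp]; exact hts)
    rcases s1.G1 τ A hA fA' γA hf' hγ y y' t' s' h' with h | h
    · exact Or.inl (key.2 h)
    · exact Or.inr h
  · -- G3
    intro τ d p N h hp f g s hgs
    obtain ⟨f', rfl⟩ := st.src g
    obtain ⟨p', rfl⟩ := st.full (x := s1.Φ.obj d) (y := s1.Φ.obj τ.b) p
    obtain ⟨h', rfl⟩ := st.full (x := s1.Φ.obj (a (τ.n + 1))) (y := s1.Φ.obj d) h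
    obtain ⟨g', rfl⟩ := st.full (x := f') (y := s1.Φ.obj d) g
    obtain ⟨s', rfl⟩ := st.full (x := f') (y := s1.Φ.obj τ.c) s
    have e1 : h' ≫ p' = s1.Φ.map τ.γ := st.faithful (by rw [st.Ψ.map_comp]; exact hp)
    have e2 : g' ≫ p' = s' ≫ s1.gen τ :=
      st.faithful (by rw [st.Ψ.map_comp, st.Ψ.map_comp]; exact hgs)
    rcases s1.G3 τ p' (sndUnmap st.faithful st.full N) h' e1 g' s' e2 with h | h
    · exact Or.inl (key.2 h)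
    · exact Or.inr (key.2 h)
  · -- G4
    intro τ d p
    rcases s1.G4 τ p with h | h
    · exact Or.inl h
    · right
      intro f g s hgs
      obtain ⟨f', rfl⟩ := st.src g
      obtain ⟨g', rfl⟩ := st.full (x := f') (y := s1.Φ.obj d) g
      obtain ⟨s', rfl⟩ := st.full (x := f') (y := s1.Φ.obj τ.c) s
      have e2 : g' ≫ s1.Φ.map p = s' ≫ s1.gen τ :=
        st.faithful (by rw [st.Ψ.map_comp, st.Ψ.map_comp]; exact hgs)
      exact key.2 (h g' s' e2)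
  · -- G5
    intro τ B B' d A A' hA hA' fA fA' hf hf' u u' f s t hst
    obtain ⟨f', rfl⟩ := st.src s
    obtain ⟨fA1, rfl⟩ := st.full (x := s1.Φ.obj τ.c) (y := s1.Φ.obj B) fA
    obtain ⟨fA2, rfl⟩ := st.full (x := s1.Φ.obj τ.c) (y := s1.Φ.obj B') fA'
    obtain ⟨s', rfl⟩ := st.full (x := f') (y := s1.Φ.obj τ.c) s
    obtain ⟨t', rfl⟩ := st.full (x := f') (y := s1.Φ.obj τ.c) t
    have e1 : fA1 ≫ s1.Φ.map A = s1.gen τ := st.faithful (by rw [st.Ψ.map_comp]; exact hf)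
    have e2 : fA2 ≫ s1.Φ.map A' = s1.gen τ := st.faithful (by rw [st.Ψ.map_comp]; exact hf')
    have e3 : s' ≫ fA1 ≫ s1.Φ.map u = t' ≫ fA2 ≫ s1.Φ.map u' :=
      st.faithful (by simp only [st.Ψ.map_comp]; exact hst)
    rcases s1.G5 τ A A' hA hA' fA1 fA2 e1 e2 u u' s' t' e3 with h | h | ⟨rfl, h⟩
    · exact Or.inl (key.2 h)
    · exact Or.inr (Or.inl (key.2 h))
    · exact Or.inr (Or.inr ⟨rfl, h⟩)
  · -- G6
    intro τ f s y h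
    obtain ⟨s', rfl⟩ := st.full (x := s1.Φ.obj f) (y := s1.Φ.obj τ.c) s
    have e1 : s' ≫ s1.gen τ = s1.Φ.map y := st.faithful (by rw [st.Ψ.map_comp]; exact h)
    exact key.2 (s1.G6 τ s' y e1)

/-- The one-step theorem from its two halves. -/
theorem exists_step_of
    (h1 : ∀ (S : Type u) [Category.{u} S] (a : ℕ → S) (ι : ∀ n, a n ⟶ a (n + 1)),
      IsStage S a ι → Nonempty (Step1 S a ι))
    (h2 : ∀ (T : Type u) [Category.{u} T], (∀ {x y : T} (f : x ⟶ y), Mono f) →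
      (∀ {x y b : T} (f : x ⟶ b) (g : y ⟶ b), ∃ (z : T) (p : z ⟶ x) (q : z ⟶ y), IsPB p q f g) →
      Nonempty (Star T))
    (S : Type u) [Category.{u} S] (a : ℕ → S) (ι : ∀ n, a n ⟶ a (n + 1))
    (hS : IsStage S a ι) : Nonempty (Step S a ι) := by
  obtain ⟨s1⟩ := h1 S a ι hS
  obtain ⟨st⟩ := h2 s1.T s1.stage.mono s1.stage.pb
  exact step_of s1 st

end Vale.Agent.P323.Z
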